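import Vale.Agent.P196.Final

open scoped Pointwise symmDiff in
/-- There is an infinite, finitely presented, simple group that is amenable (Følner's
condition: for every finite `K` and `ε > 0` there is a nonempty finite set `D` with
`|g D ∆ D| < ε |D|` for all `g ∈ K`). -/
theorem Vale.Agent.Results.P196.SimpleAmenable.result :
    ∃ (G : Type) (_ : Group G), Infinite G ∧ IsSimpleGroup G ∧ Group.IsFinitelyPresented G ∧
      ∀ (K : Finset G) (ε : ℝ), 0 < ε → ∃ D : Set G, D.Finite ∧ D.Nonempty ∧
        ∀ g ∈ K, ((((fun x => g * x) '' D) ∆ D).ncard : ℝ) < ε * D.ncard :=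
  Vale.Agent.P196.main
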